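import Crest.Statements.S0166
import Crest.Agent.Lib_AMUC.SumMod
import Crest.Agent.Lib_AMUC.SumDense
import Crest.Agent.Lib_AMUC.Diamond
import Crest.Agent.Lib_AMUC.Reflexive
-- import your own Crest.Agent.* helpers here

set_option autoImplicit false
open Crest Crest.AnalysisR

namespace Crest.Agent.S0166

open Crest.Agent.AMUC Crest.Agent.AMUC.SumNoAUC

theorem finSupp_of_mem_span {x : ESum} (hx : x ∈ Submodule.span ℝ genSet) : FinSupp x := by
  induction hx using Submodule.span_induction with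
  | mem x hx =>
    obtain ⟨k, u, hu, rfl⟩ := hx
    exact FinSupp.single k (eK k u) u (eK_coe hu)
  | zero => exact FinSupp.zero
  | add x y _ _ hx hy => exact hx.add hy
  | smul c x _ hx => exact hx.smul c

lemma sqrt_twelve_le (t : ℝ) : Real.sqrt (1 + t ^ 2 / 12) ≤ Real.sqrt (1 + t ^ 2 / 4) := by
  apply Real.sqrt_le_sqrt
  nlinarith [sq_nonneg t]

lemma half_le (t : ℝ) : (Real.sqrt (1 + t ^ 2 / 4) - 1) / 2 ≤ Real.sqrt (1 + t ^ 2 / 4) - 1 := by
  have : 1 ≤ Real.sqrt (1 + t ^ 2 / 4) := by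
    rw [Real.one_le_sqrt]
    nlinarith [sq_nonneg t]
  linarith

/-- There is a real Banach space (RealBanach record) that is separable, infinite-dimensional and reflexive, whose given norm has at every t > 0 averaged midpoint asymptotic modulus at least √(1 + t²/12) - 1 and at least (√(1 + t²/4) - 1)/2 and maximum-based midpoint modulus at least √(1 + t²/4) - 1, on which no equivalent norm is asymptotically uniformly convex, and in which for every k every map of the depth-k countably branching diamond graph of distortion at most D has 1 + k/4 ≤ D². -/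
theorem result :
    ∃ E : Crest.AnalysisR.RealBanach, E.IsSeparableInfiniteDim ∧ E.IsReflexive ∧
      (∀ t : ℝ, 0 < t → E.MidpointModulusGE E.norm t (Real.sqrt (1 + t ^ 2 / 12) - 1) ∧
        E.MidpointModulusGE E.norm t ((Real.sqrt (1 + t ^ 2 / 4) - 1) / 2) ∧
        E.MaxMidpointModulusGE E.norm t (Real.sqrt (1 + t ^ 2 / 4) - 1)) ∧
      (∀ N : E.X → ℝ, E.IsEquivNorm N → ¬ E.IsAUC N) ∧
      ∀ (k : ℕ) (f : Crest.AnalysisR.DiamondVertex k → E.X) (D : ℝ),
        E.HasDistortionLE k f D → 1 + (k : ℝ) / 4 ≤ D ^ 2 := by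
  have hmid := midpoint_ESum dense_span_genSet (fun x hx => finSupp_of_mem_span hx)
  have hmax : ∀ t : ℝ, 0 < t →
      (bundle ESum).MaxMidpointModulusGE (bundle ESum).norm t (Real.sqrt (1 + t ^ 2 / 4) - 1) := by
    intro t _ (x : ESum) hx η hη
    obtain ⟨F, hF, h⟩ := hmid t x hx η hη
    refine ⟨F, hF, fun (y : ESum) hy hy1 => (h y hy hy1).trans ?_⟩
    have h1 := le_max_left ‖x + t • y‖ ‖x - t • y‖
    have h2 := le_max_right ‖x + t • y‖ ‖x - t • y‖
    show (‖x + t • y‖ + ‖x - t • y‖) / 2 - 1 ≤ max ‖x + t • y‖ ‖x - t • y‖ - 1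
    linarith
  refine ⟨bundle ESum, ⟨inferInstanceAs (TopologicalSpace.SeparableSpace ESum),
    not_finiteDimensional_ESum⟩, refl_lp_two (fun k => refl_Xk k), fun t ht => ⟨?_, ?_, hmax t ht⟩,
    fun N hN => noAUC_ESum N hN, fun k f D hD => diamond_distortion _ hmax k f D hD⟩
  · intro x hx η hη
    obtain ⟨F, hF, h⟩ := hmid t x hx η hη
    refine ⟨F, hF, fun y hy hy1 => le_trans ?_ (h y hy hy1)⟩
    have := sqrt_twelve_le t
    linarith
  · intro x hx η hη
    obtain ⟨F, hF, h⟩ := hmid t x hx η hη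
    refine ⟨F, hF, fun y hy hy1 => le_trans ?_ (h y hy hy1)⟩
    have := half_le t
    linarith

end Crest.Agent.S0166
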