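import Crest.Statements.S0223
-- import your own Crest.Agent.* helpers here

set_option autoImplicit false
open Crest Crest.ProbabilityR

namespace Crest.Agent.S0223

open Crest.ProbabilityR.Shuffle

theorem stepPos_injective (m : ℕ) (c : Fin m → Bool) : Function.Injective (stepPos m c) := by
  intro x y h
  have hx := x.isLt
  have hy := y.isLt
  have hm : 0 < m := by omega
  have h' := congrArg Fin.val h
  simp only [stepPos] at h'
  have hxm : x.val % m < m := Nat.mod_lt _ hm
  have hym : y.val % m < m := Nat.mod_lt _ hm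
  have hmod : x.val % m = y.val % m := by
    split_ifs at h' <;> omega
  have hc : c ⟨x.val % m, hxm⟩ = c ⟨y.val % m, hym⟩ := by
    congr 1
    exact Fin.ext hmod
  have hbit : (xor (decide (m ≤ x.val)) (c ⟨x.val % m, hxm⟩)) =
      (xor (decide (m ≤ y.val)) (c ⟨y.val % m, hym⟩)) := by
    by_cases h1 : (xor (decide (m ≤ x.val)) (c ⟨x.val % m, hxm⟩)) = true <;>
    by_cases h2 : (xor (decide (m ≤ y.val)) (c ⟨y.val % m, hym⟩)) = true
    · rw [h1, h2]
    · exfalso
      rw [if_pos h1, if_neg h2] at h'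
      omega
    · exfalso
      rw [if_neg h1, if_pos h2] at h'
      omega
    · simp only [Bool.not_eq_true] at h1 h2
      rw [h1, h2]
  rw [hc] at hbit
  have hdec : decide (m ≤ x.val) = decide (m ≤ y.val) := by
    cases hA : decide (m ≤ x.val) <;> cases hB : decide (m ≤ y.val) <;>
      cases hC : c ⟨y.val % m, hym⟩ <;> simp_all
  have hiff : (m ≤ x.val) ↔ (m ≤ y.val) := by
    simpa using hdec
  apply Fin.ext
  by_cases hmx : m ≤ x.val
  · have hmy : m ≤ y.val := hiff.1 hmx
    have e1 : x.val % m = x.val - m := by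
      rw [Nat.mod_eq_sub_mod hmx, Nat.mod_eq_of_lt (by omega)]
    have e2 : y.val % m = y.val - m := by
      rw [Nat.mod_eq_sub_mod hmy, Nat.mod_eq_of_lt (by omega)]
    omega
  · have hmy : ¬ m ≤ y.val := fun h => hmx (hiff.2 h)
    have e1 : x.val % m = x.val := Nat.mod_eq_of_lt (by omega)
    have e2 : y.val % m = y.val := Nat.mod_eq_of_lt (by omega)
    omega

theorem iterPos_injective (m : ℕ) : ∀ (t : ℕ) (cs : Fin t → Fin m → Bool),
    Function.Injective (iterPos m t cs)
  | 0, _ => fun _ _ h => h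
  | t + 1, cs => by
      intro x y h
      simp only [iterPos] at h
      exact iterPos_injective m t _ (stepPos_injective m _ h)

/-- The permutation realised by a bit table. -/
noncomputable def tablePerm (m t : ℕ) (cs : Fin t → Fin m → Bool) : Equiv.Perm (Fin (2 * m)) :=
  Equiv.ofBijective (iterPos m t cs) (Finite.injective_iff_bijective.1 (iterPos_injective m t cs))

theorem tablePerm_eq_iff (m t : ℕ) (cs : Fin t → Fin m → Bool) (g : Equiv.Perm (Fin (2 * m))) :
    iterPos m t cs = ⇑g ↔ tablePerm m t cs = g := by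
  constructor
  · intro h
    apply Equiv.ext
    intro x
    simp [tablePerm, h]
  · intro h
    rw [← h]
    rfl

theorem tv_lower (m t : ℕ) :
    1 - (2 : ℝ) ^ (m * t) / ((2 * m).factorial : ℝ) ≤ tvFromUniform m t := by
  classical
  set Ω := Fin t → Fin m → Bool with hΩ
  set φ : Ω → Equiv.Perm (Fin (2 * m)) := tablePerm m t with hφ
  set u : ℝ := 1 / ((2 * m).factorial : ℝ) with hu
  have hfac : (0 : ℝ) < ((2 * m).factorial : ℝ) := by exact_mod_cast Nat.factorial_pos _
  have hu0 : 0 ≤ u := by positivity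
  have hcardΩ : Fintype.card Ω = 2 ^ (m * t) := by
    simp [hΩ, pow_mul]
  have hΩpos : (0 : ℝ) < (Fintype.card Ω : ℝ) := by
    rw [hcardΩ]; positivity
  set a : Equiv.Perm (Fin (2 * m)) → ℝ := fun g =>
    ((Finset.univ.filter (fun cs : Ω => φ cs = g)).card : ℝ) / (Fintype.card Ω : ℝ) with ha
  have hprob : ∀ g : Equiv.Perm (Fin (2 * m)),
      Crest.FinProb.uniformProb {cs : Fin t → Fin m → Bool | iterPos m t cs = ⇑g} = a g := by
    intro g
    simp only [Crest.FinProb.uniformProb, ha]
    congr 2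
    apply Finset.card_bij (fun cs _ => cs)
    · intro cs hcs
      simp only [Finset.mem_filter, Finset.mem_univ, true_and, Set.mem_setOf_eq] at hcs ⊢
      exact (tablePerm_eq_iff m t cs g).1 hcs
    · intro _ _ _ _ h; exact h
    · intro cs hcs
      refine ⟨cs, ?_, rfl⟩
      simp only [Finset.mem_filter, Finset.mem_univ, true_and, Set.mem_setOf_eq] at hcs ⊢
      exact (tablePerm_eq_iff m t cs g).2 hcs
  have hsum : ∑ g, a g = 1 := by
    simp only [ha]
    rw [← Finset.sum_div, ← Nat.cast_sum]
    have : ∑ g : Equiv.Perm (Fin (2 * m)), (Finset.univ.filter (fun cs : Ω => φ cs = g)).card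
        = Fintype.card Ω := by
      rw [← Finset.card_univ]
      exact (Finset.card_eq_sum_card_fiberwise (fun cs _ => Finset.mem_univ (φ cs))).symm
    rw [this]
    exact div_self hΩpos.ne'
  set S : Finset (Equiv.Perm (Fin (2 * m))) := Finset.univ.image φ with hS
  have hScard : (S.card : ℝ) ≤ (2 : ℝ) ^ (m * t) := by
    have : S.card ≤ Fintype.card Ω := by
      rw [← Finset.card_univ]; exact Finset.card_image_le
    rw [hcardΩ] at this
    exact_mod_cast this
  have hzero : ∀ g ∈ Sᶜ, a g = 0 := by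
    intro g hg
    simp only [ha]
    have : (Finset.univ.filter (fun cs : Ω => φ cs = g)) = ∅ := by
      apply Finset.filter_eq_empty_iff.2
      intro cs _ hcs
      apply (Finset.mem_compl.1 hg)
      exact Finset.mem_image.2 ⟨cs, Finset.mem_univ _, hcs⟩
    rw [this]; simp
  have hsumS : ∑ g ∈ S, a g = 1 := by
    rw [← hsum, ← Finset.sum_add_sum_compl S a, Finset.sum_eq_zero hzero, add_zero]
  have hcardP : (Fintype.card (Equiv.Perm (Fin (2 * m))) : ℝ) = ((2 * m).factorial : ℝ) := by
    rw [Fintype.card_perm, Fintype.card_fin]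
  have hcompl : ((Sᶜ).card : ℝ) = ((2 * m).factorial : ℝ) - (S.card : ℝ) := by
    rw [Finset.card_compl, Nat.cast_sub (Finset.card_le_univ S), hcardP]
  have h1 : ∑ g ∈ S, (a g - u) ≤ ∑ g ∈ S, |a g - u| :=
    Finset.sum_le_sum (fun g _ => le_abs_self _)
  have h2 : ∑ g ∈ Sᶜ, |a g - u| = ((Sᶜ).card : ℝ) * u := by
    rw [Finset.sum_congr rfl (fun g hg => by rw [hzero g hg, zero_sub, abs_neg, abs_of_nonneg hu0])]
    simp
  have h3 : ∑ g ∈ S, (a g - u) = 1 - (S.card : ℝ) * u := by
    rw [Finset.sum_sub_distrib, hsumS]; simp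
  have hfu : ((2 * m).factorial : ℝ) * u = 1 := by
    rw [hu]; field_simp
  have htv : tvFromUniform m t = (1 / 2) * ∑ g, |a g - u| := by
    simp only [tvFromUniform]
    congr 1
    apply Finset.sum_congr rfl
    intro g _
    rw [hprob g]
  rw [htv, ← Finset.sum_add_sum_compl S (fun g => |a g - u|), h2, hcompl]
  have h4 : (2 : ℝ) ^ (m * t) / ((2 * m).factorial : ℝ) = (2 : ℝ) ^ (m * t) * u := by
    rw [hu]; ring
  rw [h4]
  have h5 : (S.card : ℝ) * u ≤ (2 : ℝ) ^ (m * t) * u := mul_le_mul_of_nonneg_right hScard hu0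
  nlinarith [h1, h3, h5, hfu]

/-- For a deck of `2 * 2 ^ d` cards and every number `t` of shuffles, the total variation distance between the law of the arrangement of the deck and the uniform law on all arrangements is at least `1 - 2 ^ (2 ^ d * t) / (2 * 2 ^ d)!`. -/
theorem result (d t : ℕ) :
    1 - (2 : ℝ) ^ (2 ^ d * t) / ((2 * 2 ^ d).factorial : ℝ)
      ≤ Crest.ProbabilityR.Shuffle.tvFromUniform (2 ^ d) t := by
  exact tv_lower (2 ^ d) t

end Crest.Agent.S0223
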