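import Crest.Statements.S0328
import Crest.Agent.Lib_helper4.Main328

set_option autoImplicit false
open MeasureTheory
open scoped ENNReal
open Crest Crest.GeometryTopology Crest.GeometryTopology.Convex

namespace Crest.Agent.S0328

open Crest.Agent.helper4 in
/-- Unit e; a, b, p₀ ∈ e^⊥, a, b independent; α < β; L > 0; R ≥ 0, λ both continuous on [α, β]; w(t) ∈ e^⊥, w′ = λ(t)(a + tb). S = {p₀ + ρ(a + t b) + s(e + w t) : α ≤ t ≤ β, 0 ≤ ρ ≤ R t, ‖s‖ ≤ L}; A = κ ∫_α^β R²/(2√(1 + ‖w‖²)), κ = area spanned by a, b. For η > 0 a δ > 0 makes each partition t₀ < … < t_N of [α, β] of mesh ≤ δ, tags cᵢ, admit N cylinders (axes e + w(cᵢ), nondegenerate triangle bases) covering S, total area within η of A; same for S's pieces tᵢ ≤ t ≤ tᵢ₊₁ projected along these axes. -/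
theorem result
    (e a b p₀ : EuclideanSpace ℝ (Fin 3)) (he : ‖e‖ = 1)
    (ha : inner ℝ a e = 0) (hb : inner ℝ b e = 0) (hp₀ : inner ℝ p₀ e = 0)
    (hab : LinearIndependent ℝ ![a, b]) (L : ℝ) (hL : 0 < L) (α β : ℝ) (hαβ : α < β)
    (R : ℝ → ℝ) (hR : ContinuousOn R (Set.Icc α β)) (hR0 : ∀ t ∈ Set.Icc α β, 0 ≤ R t)
    (w : ℝ → EuclideanSpace ℝ (Fin 3)) (hw : ∀ t ∈ Set.Icc α β, inner ℝ (w t) e = 0)
    (lam : ℝ → ℝ) (hlam : ContinuousOn lam (Set.Icc α β))
    (hw' : ∀ t ∈ Set.Icc α β, HasDerivWithinAt w (lam t • (a + t • b)) (Set.Icc α β) t)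
    (η : ℝ) (hη : 0 < η) :
    ∃ δ : ℝ, 0 < δ ∧ ∀ (N : ℕ) (t : Fin (N + 1) → ℝ) (c : Fin N → ℝ),
      StrictMono t → t 0 = α → t (Fin.last N) = β →
      (∀ i : Fin N, t i.succ - t i.castSucc ≤ δ) →
      (∀ i : Fin N, t i.castSucc ≤ c i ∧ c i ≤ t i.succ) →
      (∃ (p q r : Fin N → EuclideanSpace ℝ (Fin 3)),
        (∀ i, inner ℝ (p i) (e + w (c i)) = 0 ∧ inner ℝ (q i) (e + w (c i)) = 0 ∧
          inner ℝ (r i) (e + w (c i)) = 0) ∧
        (∀ i, AffineIndependent ℝ ![p i, q i, r i]) ∧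
        {x : EuclideanSpace ℝ (Fin 3) | ∃ τ ∈ Set.Icc α β, ∃ ρ ∈ Set.Icc 0 (R τ), ∃ s : ℝ, abs s ≤ L ∧
            x = p₀ + ρ • (a + τ • b) + s • (e + w τ)} ⊆
          ⋃ i, {x : EuclideanSpace ℝ (Fin 3) | ∃ y ∈ convexHull ℝ {p i, q i, r i}, ∃ σ : ℝ,
            x = y + σ • (e + w (c i))} ∧
        abs ((∑ i, (μHE[2] (convexHull ℝ ({p i, q i, r i} : Set (EuclideanSpace ℝ (Fin 3))))).toReal) -
            Real.sqrt (‖a‖ ^ 2 * ‖b‖ ^ 2 - inner ℝ a b ^ 2) *
              ∫ τ in α..β, R τ ^ 2 / (2 * Real.sqrt (1 + ‖w τ‖ ^ 2))) ≤ η) ∧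
      abs ((∑ i : Fin N, (μHE[2] ((fun y => y - (inner ℝ y (e + w (c i)) / ‖e + w (c i)‖ ^ 2) • (e + w (c i))) ''
            {x : EuclideanSpace ℝ (Fin 3) | ∃ τ ∈ Set.Icc (t i.castSucc) (t i.succ), ∃ ρ ∈ Set.Icc 0 (R τ),
              ∃ s : ℝ, abs s ≤ L ∧ x = p₀ + ρ • (a + τ • b) + s • (e + w τ)})).toReal) -
          Real.sqrt (‖a‖ ^ 2 * ‖b‖ ^ 2 - inner ℝ a b ^ 2) *
            ∫ τ in α..β, R τ ^ 2 / (2 * Real.sqrt (1 + ‖w τ‖ ^ 2))) ≤ η := by
  classical
  have hG : 0 < gram a b := gram_pos_of_linearIndependent a b hab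
  set κ := Real.sqrt (‖a‖ ^ 2 * ‖b‖ ^ 2 - inner ℝ a b ^ 2) with hκ
  have hκg : κ = Real.sqrt (gram a b) := rfl
  have hκ0 : 0 ≤ κ := Real.sqrt_nonneg _
  have hwc : ContinuousOn w (Set.Icc α β) := fun x hx => (hw' x hx).continuousWithinAt
  set D : ℝ → ℝ := fun τ => Real.sqrt (1 + ‖w τ‖ ^ 2) with hDdef
  have hD1 : ∀ τ, 1 ≤ D τ := by
    intro τ
    rw [hDdef]
    show 1 ≤ Real.sqrt (1 + ‖w τ‖ ^ 2)
    rw [Real.one_le_sqrt]
    nlinarith [sq_nonneg ‖w τ‖]
  have hDc : ContinuousOn D (Set.Icc α β) :=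
    (continuousOn_const.add (hwc.norm.pow 2)).sqrt
  set F : ℝ → ℝ := fun τ => R τ ^ 2 / (2 * D τ) with hFdef
  have hFc : ContinuousOn F (Set.Icc α β) := by
    apply (hR.pow 2).div (continuousOn_const.mul hDc)
    intro x _
    have h1 := hD1 x
    have h2 : 0 < D x := by linarith
    exact (mul_pos two_pos h2).ne'
  obtain ⟨Rm, hRm⟩ := isCompact_Icc.exists_bound_of_continuousOn hR
  obtain ⟨Λ, hΛ⟩ := isCompact_Icc.exists_bound_of_continuousOn hlam
  have hαI : α ∈ Set.Icc α β := ⟨le_rfl, hαβ.le⟩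
  have hRm0 : 0 ≤ Rm := (norm_nonneg _).trans (hRm α hαI)
  have hΛ0 : 0 ≤ Λ := (norm_nonneg _).trans (hΛ α hαI)
  set T := β - α with hT
  have hT0 : 0 < T := sub_pos.mpr hαβ
  set ε1 := η / (κ * T + 1) with hε1
  have hκT : 0 < κ * T + 1 := by positivity
  have hε1pos : 0 < ε1 := div_pos hη hκT
  set θ := min 1 (ε1 / (2 * Rm + 1)) with hθ
  have hθpos : 0 < θ := lt_min one_pos (div_pos hε1pos (by positivity))
  have hθ1 : θ ≤ 1 := min_le_left _ _
  have hθ2 : θ * (2 * Rm + 1) ≤ ε1 := by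
    have := min_le_right 1 (ε1 / (2 * Rm + 1))
    rw [← hθ, le_div_iff₀ (by positivity)] at this
    exact this
  set ω := θ / 2 with hω
  set μ := θ / 10 with hμ
  have hωpos : 0 < ω := by positivity
  have hμpos : 0 < μ := by positivity
  have hθeq : ∀ x : ℝ, x + ω + 5 * μ = x + θ := by intro x; rw [hω, hμ]; ring
  -- uniform continuity
  have hFu := isCompact_Icc.uniformContinuousOn_of_continuous hFc
  have hRu := isCompact_Icc.uniformContinuousOn_of_continuous hR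
  rw [Metric.uniformContinuousOn_iff] at hFu hRu
  obtain ⟨δF, hδF, hFu⟩ := hFu (ε1 / 2) (by positivity)
  obtain ⟨δR, hδR, hRu⟩ := hRu ω hωpos
  refine ⟨min (min (δF / 2) (δR / 2)) (μ / (L * (Λ + 1))), by positivity, ?_⟩
  intro N t c ht ht0 htN hmesh htag
  have hmono : Monotone t := ht.monotone
  have hδ1 : ∀ i : Fin N, t i.succ - t i.castSucc < δF := fun i =>
    lt_of_le_of_lt ((hmesh i).trans ((min_le_left _ _).trans (min_le_left _ _))) (by linarith)
  have hδ2 : ∀ i : Fin N, t i.succ - t i.castSucc < δR := fun i =>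
    lt_of_le_of_lt ((hmesh i).trans ((min_le_left _ _).trans (min_le_right _ _))) (by linarith)
  have hδ3 : ∀ i : Fin N, L * (Λ + 1) * (t i.succ - t i.castSucc) ≤ μ := fun i => by
    have := (hmesh i).trans (min_le_right _ _)
    rw [le_div_iff₀ (by positivity)] at this
    linarith
  have hlt : ∀ i : Fin N, t i.castSucc < t i.succ := fun i => ht Fin.castSucc_lt_succ
  have hIcc : ∀ j : Fin (N + 1), t j ∈ Set.Icc α β := fun j =>
    ⟨ht0 ▸ hmono (Fin.zero_le _), htN ▸ hmono (Fin.le_last _)⟩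
  have hcell : ∀ i : Fin N, Set.Icc (t i.castSucc) (t i.succ) ⊆ Set.Icc α β := fun i =>
    Set.Icc_subset_Icc (hIcc _).1 (hIcc _).2
  have hcI : ∀ i : Fin N, c i ∈ Set.Icc α β := fun i => hcell i ⟨(htag i).1, (htag i).2⟩
  have hdist : ∀ i : Fin N, ∀ x ∈ Set.Icc (t i.castSucc) (t i.succ),
      dist (c i) x ≤ t i.succ - t i.castSucc := by
    intro i x hx
    rw [Real.dist_eq, abs_le]
    constructor <;> linarith [hx.1, hx.2, (htag i).1, (htag i).2]
  -- Riemann sum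
  have hRiem : |∑ i : Fin N, (t i.succ - t i.castSucc) * (R (c i) ^ 2 / (2 * D (c i))) -
      ∫ τ in α..β, F τ| ≤ ε1 / 2 * (t (Fin.last N) - t 0) := by
    have := riemann_le t c hmono F (by rw [ht0, htN]; exact hFc) (ε1 / 2) (by
      intro i x hx
      have := hFu (c i) (hcI i) x (hcell i hx) (lt_of_le_of_lt (hdist i x hx) (hδ1 i))
      rw [Real.dist_eq] at this
      exact this.le)
    rw [ht0, htN] at this
    rw [ht0, htN]
    exact this
  -- general sandwich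
  have hmain : ∀ A : Fin N → ℝ,
      (∀ i, κ * ((t i.succ - t i.castSucc) * ((max (R (c i) - ω) 0) ^ 2 / (2 * D (c i)))) ≤ A i) →
      (∀ i, A i ≤ κ * ((t i.succ - t i.castSucc) * ((R (c i) + θ) ^ 2 / (2 * D (c i))))) →
      |∑ i, A i - κ * ∫ τ in α..β, F τ| ≤ η := by
    intro A hlow hup
    have h1 := sandwich_sum t c hmono R D Rm θ ω κ (ε1 / 2) (∫ τ in α..β, F τ) hκ0 hθpos.le
      hωpos.le (fun i => hR0 _ (hcI i)) (fun i => (le_abs_self _).trans (hRm _ (hcI i)))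
      (fun i => hD1 _) hRiem A hlow hup
    refine h1.trans ?_
    rw [ht0, htN]
    have hM : max ((2 * Rm * θ + θ ^ 2) / 2) (Rm * ω) ≤ ε1 / 2 := by
      apply max_le
      · nlinarith
      · rw [hω]; nlinarith
    calc κ * (β - α) * (ε1 / 2 + max ((2 * Rm * θ + θ ^ 2) / 2) (Rm * ω))
        ≤ κ * T * ε1 := by
          apply mul_le_mul_of_nonneg_left _ (by positivity)
          linarith
      _ ≤ (κ * T + 1) * ε1 := by nlinarith
      _ = η := by rw [hε1]; field_simp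
  -- per-cell facts
  have hd0 : ∀ i : Fin N, ‖e + w (c i)‖ ^ 2 ≠ 0 := fun i => by
    rw [normsq_e_add e _ he (hw _ (hcI i))]; positivity
  have hRω : ∀ i : Fin N, ∀ τ ∈ Set.Icc (t i.castSucc) (t i.succ), |R (c i) - R τ| ≤ ω := by
    intro i τ hτ
    have := hRu (c i) (hcI i) τ (hcell i hτ) (lt_of_le_of_lt (hdist i τ hτ) (hδ2 i))
    rw [Real.dist_eq] at this
    exact this.le
  have hΛ' : ∀ x ∈ Set.Icc α β, |lam x| ≤ Λ + 1 := fun x hx => by
    have := hΛ x hx
    rw [Real.norm_eq_abs] at this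
    linarith
  set P : Fin N → E3 := fun i => apex a b p₀ (t i.castSucc) (t i.succ) μ with hP
  have houter : ∀ i : Fin N, ∀ τ ρ s : ℝ, τ ∈ Set.Icc (t i.castSucc) (t i.succ) →
      ρ ∈ Set.Icc 0 (R τ) → |s| ≤ L →
      projL (e + w (c i)) (p₀ + ρ • (a + τ • b) + s • (e + w τ)) ∈
        convexHull ℝ ({projL (e + w (c i)) (P i),
          projL (e + w (c i)) (P i + (R (c i) + θ) • (a + t i.castSucc • b)),
          projL (e + w (c i)) (P i + (R (c i) + θ) • (a + t i.succ • b))} : Set E3) := by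
    intro i τ ρ s hτ hρ hs
    have := cell_outer e a b p₀ he α β R w lam hlam hw' hw (Λ + 1) L μ ω hΛ' hμpos _ _ (c i)
      (hlt i) (hIcc _).1 (hIcc _).2 (htag i).1 (htag i).2 (hδ3 i)
      (fun τ hτ => by have := hRω i τ hτ; rw [abs_le] at this; linarith [this.1]) τ ρ s hτ hρ hs
    rw [hθeq] at this
    exact this
  have hareaO : ∀ i : Fin N, μHE[2] (convexHull ℝ ({projL (e + w (c i)) (P i),
          projL (e + w (c i)) (P i + (R (c i) + θ) • (a + t i.castSucc • b)),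
          projL (e + w (c i)) (P i + (R (c i) + θ) • (a + t i.succ • b))} : Set E3)) =
      ENNReal.ofReal (κ * ((t i.succ - t i.castSucc) * ((R (c i) + θ) ^ 2 / (2 * D (c i))))) :=
    fun i => area_cell e a b (w (c i)) (P i) he ha hb (hw _ (hcI i)) _ _ _ (hlt i).le
  have hnnO : ∀ i : Fin N,
      0 ≤ κ * ((t i.succ - t i.castSucc) * ((R (c i) + θ) ^ 2 / (2 * D (c i)))) := by
    intro i
    have h1 := hD1 (c i)
    have h2 : 0 < D (c i) := by linarith
    have h3 := (hlt i).le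
    have h4 : 0 ≤ t i.succ - t i.castSucc := by linarith
    positivity
  have hlowup : ∀ i : Fin N,
      κ * ((t i.succ - t i.castSucc) * ((max (R (c i) - ω) 0) ^ 2 / (2 * D (c i)))) ≤
      κ * ((t i.succ - t i.castSucc) * ((R (c i) + θ) ^ 2 / (2 * D (c i)))) := by
    intro i
    have h1 := hD1 (c i)
    have h2 : 0 < D (c i) := by linarith
    have h4 : 0 ≤ t i.succ - t i.castSucc := by linarith [(hlt i).le]
    have h5 : max (R (c i) - ω) 0 ≤ R (c i) + θ := by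
      apply max_le
      · linarith
      · have := hR0 _ (hcI i); linarith
    have h6 : (max (R (c i) - ω) 0) ^ 2 ≤ (R (c i) + θ) ^ 2 :=
      pow_le_pow_left₀ (le_max_right _ _) h5 2
    gcongr
  constructor
  · refine ⟨fun i => projL (e + w (c i)) (P i),
      fun i => projL (e + w (c i)) (P i + (R (c i) + θ) • (a + t i.castSucc • b)),
      fun i => projL (e + w (c i)) (P i + (R (c i) + θ) • (a + t i.succ • b)), ?_, ?_, ?_, ?_⟩
    · intro i
      exact ⟨inner_projL_self _ _ (hd0 i), inner_projL_self _ _ (hd0 i),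
        inner_projL_self _ _ (hd0 i)⟩
    · intro i
      apply Crest.Agent.Cyl.affineIndependent_of_gram_ne_zero
      rw [gram_eq, gram_cell e a b (w (c i)) (P i) he ha hb (hw _ (hcI i))]
      have h1 : 0 < R (c i) + θ := by have := hR0 _ (hcI i); linarith
      have h2 : 0 < t i.succ - t i.castSucc := by linarith [hlt i]
      positivity
    · rintro x ⟨τ, hτ, ρ, hρ, s, hs, rfl⟩
      obtain ⟨i, hi1, hi2⟩ := exists_cell t (by rw [ht0, htN]; exact hαβ) τ
        (by rw [ht0]; exact hτ.1) (by rw [htN]; exact hτ.2)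
      rw [Set.mem_iUnion]
      refine ⟨i, _, houter i τ ρ s ⟨hi1, hi2⟩ hρ hs,
        inner ℝ (p₀ + ρ • (a + τ • b) + s • (e + w τ)) (e + w (c i)) / ‖e + w (c i)‖ ^ 2, ?_⟩
      rw [projL_apply, sub_add_cancel]
    · have hval : ∀ i : Fin N, (μHE[2] (convexHull ℝ ({projL (e + w (c i)) (P i),
          projL (e + w (c i)) (P i + (R (c i) + θ) • (a + t i.castSucc • b)),
          projL (e + w (c i)) (P i + (R (c i) + θ) • (a + t i.succ • b))} : Set E3))).toReal =
          κ * ((t i.succ - t i.castSucc) * ((R (c i) + θ) ^ 2 / (2 * D (c i)))) := fun i => by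
        rw [hareaO i, ENNReal.toReal_ofReal (hnnO i)]
      simp only [hval]
      exact hmain _ hlowup (fun i => le_rfl)
  · have hsubO : ∀ i : Fin N,
        ((fun y => y - (inner ℝ y (e + w (c i)) / ‖e + w (c i)‖ ^ 2) • (e + w (c i))) ''
            {x : EuclideanSpace ℝ (Fin 3) | ∃ τ ∈ Set.Icc (t i.castSucc) (t i.succ),
              ∃ ρ ∈ Set.Icc 0 (R τ),
              ∃ s : ℝ, abs s ≤ L ∧ x = p₀ + ρ • (a + τ • b) + s • (e + w τ)}) ⊆
        convexHull ℝ ({projL (e + w (c i)) (P i),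
          projL (e + w (c i)) (P i + (R (c i) + θ) • (a + t i.castSucc • b)),
          projL (e + w (c i)) (P i + (R (c i) + θ) • (a + t i.succ • b))} : Set E3) := by
      rintro i _ ⟨x, ⟨τ, hτ, ρ, hρ, s, hs, rfl⟩, rfl⟩
      exact houter i τ ρ s hτ hρ hs
    have hsubI : ∀ i : Fin N,
        convexHull ℝ ({projL (e + w (c i)) p₀,
          projL (e + w (c i)) (p₀ + (max (R (c i) - ω) 0) • (a + t i.castSucc • b)),
          projL (e + w (c i)) (p₀ + (max (R (c i) - ω) 0) • (a + t i.succ • b))} : Set E3) ⊆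
        ((fun y => y - (inner ℝ y (e + w (c i)) / ‖e + w (c i)‖ ^ 2) • (e + w (c i))) ''
            {x : EuclideanSpace ℝ (Fin 3) | ∃ τ ∈ Set.Icc (t i.castSucc) (t i.succ),
              ∃ ρ ∈ Set.Icc 0 (R τ),
              ∃ s : ℝ, abs s ≤ L ∧ x = p₀ + ρ • (a + τ • b) + s • (e + w τ)}) := by
      intro i x hx
      obtain ⟨l0, l1, l2, h0, h1, h2, hs, rfl⟩ := exists_of_mem_hull3 hx
      obtain ⟨τ, ρ, hτ0, hτ1, hρ0, hρ1, heq⟩ := inner_point a b p₀ (t i.castSucc) (t i.succ)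
        (max (R (c i) - ω) 0) l0 l1 l2 (hlt i).le (le_max_right _ _) h1 h2 h0 hs
      have hrR : max (R (c i) - ω) 0 ≤ R τ := by
        apply max_le
        · have := hRω i τ ⟨hτ0, hτ1⟩
          rw [abs_le] at this
          linarith [this.2]
        · exact hR0 _ (hcell i ⟨hτ0, hτ1⟩)
      refine ⟨p₀ + ρ • (a + τ • b), ⟨τ, ⟨hτ0, hτ1⟩, ρ, ⟨hρ0, hρ1.trans hrR⟩, 0, ?_, ?_⟩, ?_⟩
      · rw [abs_zero]; exact hL.le
      · rw [zero_smul, add_zero]
      · show projL (e + w (c i)) (p₀ + ρ • (a + τ • b)) = _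
        rw [← heq, map_add, map_add, map_smul, map_smul, map_smul]
    have hfin : ∀ i : Fin N,
        μHE[2] ((fun y => y - (inner ℝ y (e + w (c i)) / ‖e + w (c i)‖ ^ 2) • (e + w (c i))) ''
            {x : EuclideanSpace ℝ (Fin 3) | ∃ τ ∈ Set.Icc (t i.castSucc) (t i.succ),
              ∃ ρ ∈ Set.Icc 0 (R τ),
              ∃ s : ℝ, abs s ≤ L ∧ x = p₀ + ρ • (a + τ • b) + s • (e + w τ)}) ≠ ⊤ := by
      intro i
      apply ne_top_of_le_ne_top _ (measure_mono (hsubO i))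
      rw [hareaO i]
      exact ENNReal.ofReal_ne_top
    apply hmain
    · intro i
      have h1 := measure_mono (μ := μHE[2]) (hsubI i)
      rw [area_cell e a b (w (c i)) p₀ he ha hb (hw _ (hcI i)) _ _ _ (hlt i).le] at h1
      have h2 := ENNReal.toReal_mono (hfin i) h1
      rw [ENNReal.toReal_ofReal] at h2
      · exact h2
      · have h1 := hD1 (c i)
        have h2 : 0 < D (c i) := by linarith
        have h4 : 0 ≤ t i.succ - t i.castSucc := by linarith [(hlt i).le]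
        have h5 : 0 < Real.sqrt (1 + ‖w (c i)‖ ^ 2) := h2
        positivity
    · intro i
      have h1 := measure_mono (μ := μHE[2]) (hsubO i)
      have h2 := ENNReal.toReal_mono (by rw [hareaO i]; exact ENNReal.ofReal_ne_top) h1
      rw [hareaO i, ENNReal.toReal_ofReal (hnnO i)] at h2
      exact h2

end Crest.Agent.S0328
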