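import Crest.Statements.S0423
import Crest.Agent.Lib_S0423.Main
import Crest.Agent.Lib_S0423.Bridge
import Crest.Agent.Lib_S0423.Sharp

set_option autoImplicit false
open Crest Crest.AlgGeometry

namespace Crest.Agent.S0423

/-- For independent mean-one exponential random variables `X_1, …, X_N` (written as an integral over the positive orthant against the density `exp (-(x_1 + ⋯ + x_N))`), real coefficients `a_1, …, a_N` summing to zero, and the weight `g = truncExpWeight`, the quantity `(e^{4/3} / (4/3)) · E[g(4/3 + a_1 X_1 + ⋯ + a_N X_N)]` has supremum over all `N ≥ 1` and all such `a` exactly `(3/4) e^{4/3} − e/3`: it never exceeds this value, and comes within any `ε > 0` of it for some `N` and `a`. -/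
theorem result :
    (∀ (N : ℕ) (a : Fin N → ℝ), 1 ≤ N → ∑ i, a i = 0 →
      Real.exp (4 / 3) / (4 / 3) *
          ∫ x in Set.pi Set.univ (fun _ : Fin N => Set.Ioi (0 : ℝ)),
            Crest.AlgGeometry.truncExpWeight (4 / 3 + ∑ i, a i * x i) * Real.exp (-∑ i, x i)
        ≤ 3 / 4 * Real.exp (4 / 3) - Real.exp 1 / 3) ∧
    (∀ ε : ℝ, 0 < ε → ∃ (N : ℕ) (a : Fin N → ℝ), 1 ≤ N ∧ ∑ i, a i = 0 ∧
      3 / 4 * Real.exp (4 / 3) - Real.exp 1 / 3 - ε <
        Real.exp (4 / 3) / (4 / 3) *
          ∫ x in Set.pi Set.univ (fun _ : Fin N => Set.Ioi (0 : ℝ)),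
            Crest.AlgGeometry.truncExpWeight (4 / 3 + ∑ i, a i * x i) * Real.exp (-∑ i, x i)) := by
  refine ⟨?_, Crest.Agent.L423.sharp⟩
  intro N a _ ha
  have hb : ∀ x, |Crest.AlgGeometry.truncExpWeight x| ≤ 1 := by
    intro x
    have h0 := Crest.Agent.L423.wbar_nonneg x
    have h1 := Crest.Agent.L423.wbar_le_one x
    unfold Crest.Agent.L423.wbar at h0 h1
    rw [abs_le]; constructor <;> linarith
  rw [Crest.Agent.L423.bridge Crest.Agent.L423.measurable_truncExpWeight hb N a (4 / 3)]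
  have hs : (List.ofFn a).sum = 0 := by rw [List.sum_ofFn, ha]
  have h := Crest.Agent.L423.Tl_truncExpWeight_le (List.ofFn a) hs
  have hpos : 0 < Real.exp (4 / 3) / (4 / 3) := by positivity
  have h2 := mul_le_mul_of_nonneg_left h hpos.le
  refine le_trans h2 (le_of_eq ?_)
  have e : Real.exp (4 / 3) * Real.exp (-(1 / 3)) = Real.exp 1 := by
    rw [← Real.exp_add]; norm_num
  have : Real.exp (4 / 3) / (4 / 3) * (1 - 4 / 9 * Real.exp (-(1 / 3)))
      = 3 / 4 * Real.exp (4 / 3) - 1 / 3 * (Real.exp (4 / 3) * Real.exp (-(1 / 3))) := by ring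
  rw [this, e]; ring

end Crest.Agent.S0423
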